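import Vale.Agent.P088.R2.H459.DM.Sup
import Vale.Agent.P088.R2.H856.DM.Ext

/-!
# P088, SOLV row 8: integrable derivatives on a half box give smoothness up to the flat side
-/

open MeasureTheory Set Function Filter Topology
open scoped ContDiff ENNReal NNReal Manifold

set_option linter.unusedSectionVars false

noncomputable section

namespace Vale.Agent.P088.DM

open Vale.Agent.P088.R2.H856.DM

section loc

variable {X E : Type*} [NormedAddCommGroup X] [NormedSpace ℝ X] [FiniteDimensional ℝ X]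
  [NormedAddCommGroup E] [NormedSpace ℝ E] {J : Type*}

/-- A smooth function on an open set agrees near a closed subset with a global one. -/
theorem glob {U B : Set X} (hU : IsOpen U) (hB : IsClosed B) (hBU : B ⊆ U) {v : X → E}
    (hv : ContDiffOn ℝ ∞ v U) :
    ∃ f : X → E, ContDiff ℝ ∞ f ∧ ∀ x ∈ B, f =ᶠ[𝓝 x] v := by
  obtain ⟨χ, h0, h1, -⟩ := exists_contMDiffMap_zero_one_nhds_of_isClosed (n := (⊤ : ℕ∞)) 𝓘(ℝ, X)
    hU.isClosed_compl hB (by
      rw [Set.disjoint_left]; intro x hx hxB; exact hx (hBU hxB))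
  have hχ : ContDiff ℝ ∞ (χ : X → ℝ) := χ.contMDiff.contDiff
  refine ⟨fun x => χ x • v x, ?_, ?_⟩
  · rw [contDiff_iff_contDiffAt]
    intro x
    by_cases hx : x ∈ U
    · exact hχ.contDiffAt.smul (hv.contDiffAt (hU.mem_nhds hx))
    · have h2 : ∀ᶠ y in 𝓝 x, χ y = 0 := (eventually_nhdsSet_iff_forall.1 h0) x hx
      refine (contDiffAt_const (c := (0 : E))).congr_of_eventuallyEq ?_
      filter_upwards [h2] with y hy
      rw [hy, zero_smul]
  · intro x hx
    have h2 : ∀ᶠ y in 𝓝 x, χ y = 1 := (eventually_nhdsSet_iff_forall.1 h1) x hx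
    filter_upwards [h2] with y hy
    rw [hy, one_smul]

theorem dd_congr (b : Module.Basis J ℝ X) {f v : X → E} {x : X} (h : f =ᶠ[𝓝 x] v) (i : J) :
    dd b i f =ᶠ[𝓝 x] dd b i v := by
  filter_upwards [h.fderiv (𝕜 := ℝ)] with y hy
  simp only [dd, hy]

theorem ddL_congr (b : Module.Basis J ℝ X) : ∀ (l : List J) {f v : X → E} {x : X},
    f =ᶠ[𝓝 x] v → ddL b l f =ᶠ[𝓝 x] ddL b l v
  | [], _, _, _, h => h
  | i :: l, _, _, _, h => ddL_congr b l (dd_congr b h i)

theorem ddL_append (b : Module.Basis J ℝ X) : ∀ (l S : List J) (f : X → E),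
    ddL b S (ddL b l f) = ddL b (l ++ S) f
  | [], _, _ => rfl
  | i :: l, S, f => by simp only [List.cons_append, ddL]; exact ddL_append b l S (dd b i f)

theorem ddL_contDiffOn (b : Module.Basis J ℝ X) {S : Set X} (hS : IsOpen S) :
    ∀ (l : List J) {v : X → E}, ContDiffOn ℝ ∞ v S → ContDiffOn ℝ ∞ (ddL b l v) S
  | [], _, h => h
  | i :: l, _, h => ddL_contDiffOn b hS l (dd_contDiffOn b hS h i)

end loc

section box

variable {E J : Type*} [NormedAddCommGroup E] [NormedSpace ℝ E] [CompleteSpace E] [Fintype J]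
  [DecidableEq J]

/-- The open half box. -/
def Ub (o : J) (r : ℝ) : Set (J → ℝ) := {y | 0 < y o ∧ ∀ i, |y i| < r}

theorem isOpen_Ub (o : J) (r : ℝ) : IsOpen (Ub o r) := by
  have h : Ub o r = {y : J → ℝ | 0 < y o} ∩ ⋂ i, {y : J → ℝ | |y i| < r} := by
    ext y; simp [Ub]
  rw [h]
  exact (isOpen_lt continuous_const (continuous_apply o)).inter
    (isOpen_iInter_of_finite fun i => isOpen_lt (continuous_apply i).abs continuous_const)

/-- Every derivative is bounded on the smaller box. -/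
theorem sup_Ub (o : J) {r r' : ℝ} (hr : r' < r) {v : (J → ℝ) → E}
    (hv : ContDiffOn ℝ ∞ v (Ub o r))
    (hi : ∀ l : List J, ∫⁻ y in Ub o r, ‖ddL (sb J) l v y‖ₑ ≠ ⊤) (l : List J) :
    ∃ M : ℝ, ∀ y ∈ Ub o r', ‖ddL (sb J) l v y‖ ≤ M := by
  set s : ℝ := (r - r') / 2 with hs
  have hs0 : 0 < s := by rw [hs]; linarith
  set K : ℝ≥0∞ := ENNReal.ofReal (max 1 s⁻¹) ^ (Finset.univ : Finset J).toList.length *
    ((List.sublists' (Finset.univ : Finset J).toList).map fun S =>
      ∫⁻ y in Ub o r, ‖ddL (sb J) (l ++ S) v y‖ₑ).sum with hK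
  have hKt : K ≠ ⊤ := by
    refine ENNReal.mul_ne_top (ENNReal.pow_ne_top ENNReal.ofReal_ne_top) ?_
    have : ∀ L : List (List J), ((L.map fun S =>
        ∫⁻ y in Ub o r, ‖ddL (sb J) (l ++ S) v y‖ₑ).sum) ≠ ⊤ := by
      intro L
      induction L with
      | nil => simp
      | cons S L ih =>
        simp only [List.map_cons, List.sum_cons]
        exact ENNReal.add_ne_top.2 ⟨hi _, ih⟩
    exact this _
  refine ⟨K.toReal, fun y hy => ?_⟩
  -- the box at y
  set a : J → ℝ := fun i => if i = o then y i else y i - s / 2 with ha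
  set B : Set (J → ℝ) := Set.univ.pi fun i => Icc (a i) (a i + s) with hB
  have hya : ∀ i, y i ∈ Icc (a i) (a i + s) := by
    intro i
    simp only [ha]
    split_ifs
    · constructor <;> linarith
    · constructor <;> linarith
  have hBU : B ⊆ Ub o r := by
    intro z hz
    have hz' : ∀ i, z i ∈ Icc (a i) (a i + s) := fun i => hz i (mem_univ i)
    refine ⟨?_, fun i => ?_⟩
    · have h1 := (hz' o).1
      simp only [ha, if_true] at h1
      exact lt_of_lt_of_le hy.1 h1
    · have h1 := hz' i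
      have h2 := abs_lt.1 (hy.2 i)
      simp only [ha] at h1
      rw [abs_lt]
      split_ifs at h1 with h
      · constructor
        · linarith [h1.1]
        · linarith [h1.2]
      · constructor
        · linarith [h1.1]
        · linarith [h1.2]
  have hBc : IsClosed B := isClosed_set_pi fun i _ => isClosed_Icc
  obtain ⟨f, hf, hfv⟩ := glob (isOpen_Ub o r) hBc hBU (ddL_contDiffOn (sb J) (isOpen_Ub o r) l hv)
  have hyB : y ∈ B := fun i _ => hya i
  have h1 := sup_box hs0 hf y hya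
  have h2 : ∀ S : List J, ∫⁻ z in B, ‖ddL (sb J) S f z‖ₑ ≤
      ∫⁻ z in Ub o r, ‖ddL (sb J) (l ++ S) v z‖ₑ := by
    intro S
    calc ∫⁻ z in B, ‖ddL (sb J) S f z‖ₑ = ∫⁻ z in B, ‖ddL (sb J) (l ++ S) v z‖ₑ := by
          refine setLIntegral_congr_fun hBc.measurableSet fun z hz => ?_
          have h3 := (ddL_congr (sb J) S (hfv z hz)).self_of_nhds
          simp only [h3, ddL_append]
      _ ≤ _ := lintegral_mono_set hBU
  have h4 : ‖ddL (sb J) l v y‖ₑ ≤ K := by
    rw [← (hfv y hyB).self_of_nhds]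
    refine h1.trans ?_
    rw [hK]
    refine mul_le_mul' le_rfl ?_
    refine List.sum_le_sum fun S _ => h2 S
  rw [← toReal_enorm]
  exact ENNReal.toReal_mono hKt h4

end box

section eucl

variable {E : Type*} [NormedAddCommGroup E] [NormedSpace ℝ E] [CompleteSpace E] {n : ℕ} [NeZero n]

/-- The open half box. -/
def UU (n : ℕ) [NeZero n] (r : ℝ) : Set (EuclideanSpace ℝ (Fin n)) := {y | 0 < y 0 ∧ ∀ i, |y i| < r}

/-- The half box with its flat side. -/
def HH (n : ℕ) [NeZero n] (r : ℝ) : Set (EuclideanSpace ℝ (Fin n)) := {y | 0 ≤ y 0 ∧ ∀ i, |y i| < r}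

/-- The standard basis. -/
abbrev eb (n : ℕ) : Module.Basis (Fin n) ℝ (EuclideanSpace ℝ (Fin n)) :=
  (EuclideanSpace.basisFun (Fin n) ℝ).toBasis

theorem eb_apply (i : Fin n) : eb n i = EuclideanSpace.single i (1 : ℝ) := by
  simp [eb]

theorem isOpen_UU (r : ℝ) : IsOpen (UU n r) := by
  have h : UU n r = {y : EuclideanSpace ℝ (Fin n) | 0 < y 0} ∩
      ⋂ i, {y : EuclideanSpace ℝ (Fin n) | |y i| < r} := by
    ext y; simp [UU]
  rw [h]
  exact (isOpen_lt continuous_const (by fun_prop)).inter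
    (isOpen_iInter_of_finite fun i => isOpen_lt (by fun_prop) continuous_const)

theorem convex_UU (r : ℝ) : Convex ℝ (UU n r) := by
  intro x hx y hy a b ha hb hab
  refine ⟨?_, fun i => ?_⟩
  · have h1 : (a • x + b • y) 0 = a * x 0 + b * y 0 := by simp
    rw [h1]
    rcases eq_or_lt_of_le ha with h | h
    · have hb1 : b = 1 := by linarith
      rw [← h, hb1]; simpa using hy.1
    · have h2 : 0 < a * x 0 := mul_pos h hx.1
      have h3 : 0 ≤ b * y 0 := mul_nonneg hb hy.1.le
      linarith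
  · have h1 : (a • x + b • y) i = a * x i + b * y i := by simp
    rw [h1]
    have hx2 := abs_lt.1 (hx.2 i)
    have hy2 := abs_lt.1 (hy.2 i)
    rw [abs_lt]
    constructor
    · rcases eq_or_lt_of_le ha with h | h
      · have hb1 : b = 1 := by linarith
        rw [← h, hb1]; linarith
      · nlinarith [mul_lt_mul_of_pos_left hx2.1 h, mul_le_mul_of_nonneg_left hy2.1.le hb]
    · rcases eq_or_lt_of_le ha with h | h
      · have hb1 : b = 1 := by linarith
        rw [← h, hb1]; linarith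
      · nlinarith [mul_lt_mul_of_pos_left hx2.2 h, mul_le_mul_of_nonneg_left hy2.2.le hb]

theorem HH_subset (r : ℝ) : HH n r ⊆ closure (UU n r) := by
  intro y hy
  have h1 : Tendsto (fun t : ℝ => y + t • EuclideanSpace.single (0 : Fin n) (1 : ℝ)) (𝓝[>] 0)
      (𝓝 y) := by
    have h2 : Continuous fun t : ℝ => y + t • EuclideanSpace.single (0 : Fin n) (1 : ℝ) := by
      fun_prop
    have h3 := h2.tendsto 0
    simp only [zero_smul, add_zero] at h3
    exact h3.mono_left nhdsWithin_le_nhds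
  refine mem_closure_of_tendsto h1 ?_
  have h4 : 0 < r - |y 0| := sub_pos.2 (hy.2 0)
  filter_upwards [self_mem_nhdsWithin, nhdsWithin_le_nhds (Iio_mem_nhds h4)] with t ht ht2
  have ht' : 0 < t := ht
  have ht2' : t < r - |y 0| := ht2
  refine ⟨?_, fun i => ?_⟩
  · simp only [PiLp.add_apply, PiLp.smul_apply, PiLp.single_apply, if_true, smul_eq_mul,
      mul_one]
    linarith [hy.1]
  · simp only [PiLp.add_apply, PiLp.smul_apply, PiLp.single_apply, smul_eq_mul]
    by_cases h : i = 0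
    · subst h
      simp only [if_true, mul_one]
      calc |y 0 + t| ≤ |y 0| + |t| := abs_add_le _ _
        _ < r := by rw [abs_of_pos ht']; linarith
    · simp only [if_neg h, mul_zero, add_zero]
      exact hy.2 i

/-- The linear equivalence between the two models. -/
abbrev tl (n : ℕ) : (Fin n → ℝ) ≃L[ℝ] EuclideanSpace ℝ (Fin n) :=
  (EuclideanSpace.equiv (Fin n) ℝ).symm

theorem tl_sb (i : Fin n) : tl n (sb (Fin n) i) = eb n i := by
  rw [eb_apply]
  simp [tl, Pi.basisFun_apply]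

theorem dd_comp (v : EuclideanSpace ℝ (Fin n) → E) (i : Fin n) :
    dd (sb (Fin n)) i (v ∘ tl n) = dd (eb n) i v ∘ tl n := by
  funext y
  simp only [dd, Function.comp_apply]
  rw [ContinuousLinearEquiv.comp_right_fderiv]
  rw [ContinuousLinearMap.comp_apply]
  exact congrArg _ (tl_sb i)

theorem ddL_comp : ∀ (l : List (Fin n)) (v : EuclideanSpace ℝ (Fin n) → E),
    ddL (sb (Fin n)) l (v ∘ tl n) = ddL (eb n) l v ∘ tl n
  | [], _ => rfl
  | i :: l, v => by simp only [ddL]; rw [dd_comp]; exact ddL_comp l _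

theorem tl_mp : MeasurePreserving (tl n) volume volume := PiLp.volume_preserving_toLp (Fin n)

theorem tl_pre (r : ℝ) : tl n ⁻¹' UU n r = Ub 0 r := by
  ext y; simp [UU, Ub, tl]

theorem lint_tl (r : ℝ) (g : EuclideanSpace ℝ (Fin n) → ℝ≥0∞) :
    ∫⁻ y in Ub (0 : Fin n) r, g (tl n y) = ∫⁻ y in UU n r, g y := by
  rw [← tl_pre]
  exact tl_mp.setLIntegral_comp_preimage_emb (tl n).toHomeomorph.measurableEmbedding g (UU n r)

theorem fin_UU (r : ℝ) : volume (UU n r) ≠ ⊤ := by
  have h1 : volume (UU n r) = volume (Ub (0 : Fin n) r) := by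
    rw [← tl_pre]
    exact (tl_mp.measure_preimage (isOpen_UU r).measurableSet.nullMeasurableSet).symm
  rw [h1]
  have h2 : Ub (0 : Fin n) r ⊆ Set.univ.pi fun _ => Icc (-r) r := fun y hy i _ => by
    have := abs_lt.1 (hy.2 i)
    exact ⟨this.1.le, this.2.le⟩
  exact ((measure_mono h2).trans_lt
    (isCompact_univ_pi fun _ => isCompact_Icc).measure_lt_top).ne

/-- Row 8, L1 form. -/
theorem row8_L1 {r r' : ℝ} (hr : r' < r) (v : EuclideanSpace ℝ (Fin n) → E)
    (hv : ContDiffOn ℝ ∞ v (UU n r))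
    (hi : ∀ l : List (Fin n), ∫⁻ y in UU n r, ‖ddL (eb n) l v y‖ₑ ≠ ⊤) :
    ∃ g, ContDiffOn ℝ ∞ g (HH n r') ∧ EqOn g v (UU n r') := by
  have hsub : UU n r' ⊆ UU n r := fun y hy => ⟨hy.1, fun i => (hy.2 i).trans hr⟩
  have h1 : ContDiffOn ℝ ∞ (v ∘ tl n) (Ub (0 : Fin n) r) := by
    rw [← tl_pre]
    exact hv.comp (tl n).contDiff.contDiffOn (mapsTo_preimage _ _)
  have h2 : ∀ l : List (Fin n), ∃ M : ℝ, ∀ y ∈ UU n r', ‖ddL (eb n) l v y‖ ≤ M := by
    intro l
    obtain ⟨M, hM⟩ := sup_Ub (0 : Fin n) hr h1 (fun l => by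
      rw [ddL_comp]
      simp only [Function.comp_apply]
      rw [lint_tl r fun y => ‖ddL (eb n) l v y‖ₑ]
      exact hi l) l
    refine ⟨M, fun y hy => ?_⟩
    have h3 := hM ((tl n).symm y) (by
      rw [← tl_pre]; simpa using hy)
    rw [ddL_comp] at h3
    simpa using h3
  obtain ⟨h3, h4⟩ := ext_of_bdd (eb n) (isOpen_UU r') (convex_UU r') v (hv.mono hsub) h2
  exact ⟨_, h3.mono (HH_subset r'), h4⟩

/-- Row 8: derivatives square integrable on the half box. -/
theorem row8 {r r' : ℝ} (hr : r' < r) (v : EuclideanSpace ℝ (Fin n) → E)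
    (hv : ContDiffOn ℝ ∞ v (UU n r))
    (hi : ∀ l : List (Fin n), MemLp (ddL (eb n) l v) 2 (volume.restrict (UU n r))) :
    ∃ g, ContDiffOn ℝ ∞ g (HH n r') ∧ EqOn g v (UU n r') := by
  refine row8_L1 hr v hv fun l => ?_
  have : IsFiniteMeasure (volume.restrict (UU n r)) :=
    ⟨by rw [Measure.restrict_apply_univ]; exact (fin_UU r).lt_top⟩
  exact ((hi l).integrable (by norm_num)).2.ne

end eucl

end Vale.Agent.P088.DM
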