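import Vale.Agent.P088.R2.H459.DM.Row8

/-!
# P088, SOLV: the boundary value from the trace bound
-/

open MeasureTheory Set Function Filter Topology
open scoped ContDiff ENNReal NNReal

noncomputable section

namespace Vale.Agent.P088.DM

variable {E : Type*} [NormedAddCommGroup E] {n : ℕ} [NeZero n]

/-- The volume of a thin box on the flat side. -/
theorem vol_thin (y : EuclideanSpace ℝ (Fin n)) {e ρ : ℝ} (he : 0 < e) (hρ : 0 < ρ) :
    volume {z : EuclideanSpace ℝ (Fin n) | (0 < z 0 ∧ z 0 < e) ∧ ∀ i ≠ 0, |z i - y i| < ρ} =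
      ENNReal.ofReal (e * ∏ _i ∈ (Finset.univ : Finset (Fin n)).erase 0, (2 * ρ)) := by
  set T : Set (EuclideanSpace ℝ (Fin n)) :=
    {z | (0 < z 0 ∧ z 0 < e) ∧ ∀ i ≠ 0, |z i - y i| < ρ} with hT
  have hTo : IsOpen T := by
    have h : T = ({z : EuclideanSpace ℝ (Fin n) | 0 < z 0} ∩ {z | z 0 < e}) ∩
        ⋂ i, {z : EuclideanSpace ℝ (Fin n) | i ≠ 0 → |z i - y i| < ρ} := by
      ext z; simp [hT]
    rw [h]
    refine ((isOpen_lt continuous_const (by fun_prop)).inter
      (isOpen_lt (by fun_prop) continuous_const)).inter (isOpen_iInter_of_finite fun i => ?_)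
    by_cases hi : i = 0
    · simp [hi]
    · simp only [ne_eq, hi, not_false_eq_true, forall_const]
      exact isOpen_lt (by fun_prop) continuous_const
  have h1 : volume T = volume (tl n ⁻¹' T) :=
    (tl_mp.measure_preimage hTo.measurableSet.nullMeasurableSet).symm
  have h2 : tl n ⁻¹' T = Set.univ.pi fun i => if i = 0 then Ioo 0 e else Ioo (y i - ρ) (y i + ρ) := by
    ext z
    have h5 : ∀ i, (tl n z) i = z i := fun _ => rfl
    rw [mem_preimage, Set.mem_univ_pi]
    constructor
    · rintro ⟨h3, h4⟩ i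
      by_cases hi : i = 0
      · subst hi; rw [if_pos rfl]; exact h3
      · rw [if_neg hi]
        have := abs_lt.1 (h4 i hi)
        rw [h5] at this
        constructor <;> linarith [this.1, this.2]
    · intro h
      refine ⟨?_, fun i hi => ?_⟩
      · have := h 0
        rw [if_pos rfl] at this
        exact this
      · have := h i
        rw [if_neg hi] at this
        rw [h5, abs_lt]
        constructor <;> linarith [this.1, this.2]
  rw [h1, h2, volume_pi_pi]
  have h6 : ∀ i : Fin n, volume (if i = 0 then Ioo 0 e else Ioo (y i - ρ) (y i + ρ)) =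
      ENNReal.ofReal (if i = 0 then e else 2 * ρ) := by
    intro i
    split_ifs
    · rw [Real.volume_Ioo, sub_zero]
    · rw [Real.volume_Ioo]; congr 1; ring
  simp only [h6]
  rw [← ENNReal.ofReal_prod_of_nonneg (fun i _ => by split_ifs <;> positivity)]
  congr 1
  rw [← Finset.mul_prod_erase Finset.univ _ (Finset.mem_univ (0 : Fin n))]
  rw [if_pos rfl]
  congr 1
  refine Finset.prod_congr rfl fun i hi => ?_
  rw [if_neg (Finset.ne_of_mem_erase hi)]

/-- The boundary value vanishes. -/
theorem tr_zero {r : ℝ} {g : EuclideanSpace ℝ (Fin n) → E} (hg : ContinuousOn g (HH n r))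
    (htr : ∃ C : ℝ≥0, ∀ e > 0, ∫⁻ y in UU n r ∩ {y | y 0 < e}, ENNReal.ofReal (‖g y‖ ^ 2) ≤
      C * ENNReal.ofReal (e ^ 2)) :
    ∀ y ∈ HH n r, y 0 = 0 → g y = 0 := by
  intro y hy hy0
  by_contra hne
  obtain ⟨C, hC⟩ := htr
  set δ : ℝ := ‖g y‖ / 2 with hδ
  have hpos : 0 < ‖g y‖ := norm_pos_iff.2 hne
  have hδ0 : 0 < δ := by rw [hδ]; linarith
  -- a box around y where the norm is at least δ
  have h1 : ∀ᶠ z in 𝓝[HH n r] y, δ < ‖g z‖ := by
    have h2 := (hg y hy).norm
    exact h2.eventually_const_lt (by rw [hδ]; linarith)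
  have h3 : ∀ᶠ z in 𝓝[HH n r] y, ∀ i, |z i| < r := by
    filter_upwards [self_mem_nhdsWithin] with z hz using hz.2
  have hcont : Continuous fun z : Fin n → ℝ => (tl n z) := (tl n).continuous
  have h4 : ∀ᶠ z in 𝓝 y, z ∈ HH n r → δ < ‖g z‖ := eventually_nhdsWithin_iff.1 h1
  obtain ⟨ρ, hρ, hball⟩ : ∃ ρ > 0, ∀ z : EuclideanSpace ℝ (Fin n), (∀ i, |z i - y i| < ρ) →
      (z ∈ HH n r → δ < ‖g z‖) ∧ ∀ i, |z i| < r := by
    have h5 : ∀ᶠ z in 𝓝 y, (z ∈ HH n r → δ < ‖g z‖) ∧ ∀ i, |z i| < r := by
      refine h4.and ?_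
      rw [eventually_all]
      intro i
      have h6 : Continuous fun z : EuclideanSpace ℝ (Fin n) => |z i| := by fun_prop
      exact h6.tendsto y (Iio_mem_nhds (hy.2 i))
    have h7 : ∀ᶠ z in 𝓝 ((tl n).symm y), (tl n z ∈ HH n r → δ < ‖g (tl n z)‖) ∧
        ∀ i, |(tl n z) i| < r := by
      have h8 := (tl n).continuous.tendsto ((tl n).symm y)
      rw [ContinuousLinearEquiv.apply_symm_apply] at h8
      exact h8.eventually h5
    obtain ⟨ρ, hρ, hb⟩ := Metric.eventually_nhds_iff.1 h7
    refine ⟨ρ, hρ, fun z hz => ?_⟩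
    have h9 := @hb ((tl n).symm z) (by
      rw [dist_pi_lt_iff hρ]
      intro i
      rw [Real.dist_eq]
      exact hz i)
    simpa using h9
  set K : ℝ := ∏ _i ∈ (Finset.univ : Finset (Fin n)).erase 0, (2 * ρ) with hK
  have hK0 : 0 < K := Finset.prod_pos fun i _ => by positivity
  -- the inequality for small e
  have h10 : ∀ e : ℝ, 0 < e → e < ρ → δ ^ 2 * K ≤ C * e := by
    intro e he heρ
    set T : Set (EuclideanSpace ℝ (Fin n)) :=
      {z | (0 < z 0 ∧ z 0 < e) ∧ ∀ i ≠ 0, |z i - y i| < ρ} with hT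
    have hsub : T ⊆ UU n r ∩ {y | y 0 < e} := by
      intro z hz
      have h11 : ∀ i, |z i - y i| < ρ := by
        intro i
        by_cases hi : i = 0
        · subst hi
          rw [hy0, sub_zero, abs_of_pos hz.1.1]
          exact hz.1.2.trans heρ
        · exact hz.2 i hi
      exact ⟨⟨hz.1.1, (hball z h11).2⟩, hz.1.2⟩
    have hlow : ENNReal.ofReal (δ ^ 2) * volume T ≤
        ∫⁻ y in UU n r ∩ {y | y 0 < e}, ENNReal.ofReal (‖g y‖ ^ 2) := by
      calc ENNReal.ofReal (δ ^ 2) * volume T = ∫⁻ _ in T, ENNReal.ofReal (δ ^ 2) := by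
            rw [setLIntegral_const]
        _ ≤ ∫⁻ z in T, ENNReal.ofReal (‖g z‖ ^ 2) := by
            refine setLIntegral_mono' ?_ fun z hz => ?_
            · have hTo : IsOpen T := by
                have h : T = ({z : EuclideanSpace ℝ (Fin n) | 0 < z 0} ∩ {z | z 0 < e}) ∩
                    ⋂ i, {z : EuclideanSpace ℝ (Fin n) | i ≠ 0 → |z i - y i| < ρ} := by
                  ext z; simp [hT]
                rw [h]
                refine ((isOpen_lt continuous_const (by fun_prop)).inter
                  (isOpen_lt (by fun_prop) continuous_const)).inter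
                  (isOpen_iInter_of_finite fun i => ?_)
                by_cases hi : i = 0
                · simp [hi]
                · simp only [ne_eq, hi, not_false_eq_true, forall_const]
                  exact isOpen_lt (by fun_prop) continuous_const
              exact hTo.measurableSet
            · have h12 := hsub hz
              have h11 : ∀ i, |z i - y i| < ρ := by
                intro i
                by_cases hi : i = 0
                · subst hi
                  rw [hy0, sub_zero, abs_of_pos hz.1.1]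
                  exact hz.1.2.trans heρ
                · exact hz.2 i hi
              have h13 := (hball z h11).1 ⟨h12.1.1.le, h12.1.2⟩
              exact ENNReal.ofReal_le_ofReal (pow_le_pow_left₀ hδ0.le h13.le 2)
        _ ≤ _ := lintegral_mono_set hsub
    have h14 := hlow.trans (hC e he)
    rw [vol_thin y he hρ, ← ENNReal.ofReal_mul (by positivity)] at h14
    have h15 : (C : ℝ≥0∞) * ENNReal.ofReal (e ^ 2) = ENNReal.ofReal (C * e ^ 2) := by
      rw [ENNReal.ofReal_mul C.coe_nonneg, ENNReal.ofReal_coe_nnreal]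
    rw [h15, ENNReal.ofReal_le_ofReal_iff (by positivity)] at h14
    have h16 : (δ ^ 2 * K) * e ≤ (C * e) * e := by nlinarith
    exact le_of_mul_le_mul_right h16 he
  have hp : 0 < δ ^ 2 * K := by positivity
  by_cases hC0 : (C : ℝ) = 0
  · have := h10 (ρ / 2) (by linarith) (by linarith)
    rw [hC0, zero_mul] at this
    linarith
  · have hC1 : 0 < (C : ℝ) := lt_of_le_of_ne C.coe_nonneg (Ne.symm hC0)
    set e : ℝ := min (ρ / 2) (δ ^ 2 * K / (2 * C)) with he
    have he0 : 0 < e := lt_min (by linarith) (by positivity)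
    have h17 := h10 e he0 (lt_of_le_of_lt (min_le_left _ _) (by linarith))
    have h18 : (C : ℝ) * e ≤ C * (δ ^ 2 * K / (2 * C)) :=
      mul_le_mul_of_nonneg_left (min_le_right _ _) hC1.le
    have h19 : (C : ℝ) * (δ ^ 2 * K / (2 * C)) = δ ^ 2 * K / 2 := by field_simp
    linarith

end Vale.Agent.P088.DM
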