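import Vale.Agent.P088.MathlibUsed

/-!
# P088, SOLV: iterated directional derivatives along a basis
-/

noncomputable section

namespace Vale.Agent.P088.DM

variable {X E J : Type*} [NormedAddCommGroup X] [NormedSpace ℝ X] [NormedAddCommGroup E]
  [NormedSpace ℝ E]

/-- The derivative in the direction of the basis vector `b i`. -/
def dd (b : Module.Basis J ℝ X) (i : J) (v : X → E) : X → E := fun y => fderiv ℝ v y (b i)

/-- Iterated directional derivatives; the head of the list acts first. -/
def ddL (b : Module.Basis J ℝ X) : List J → (X → E) → X → E
  | [], f => f
  | i :: l, f => ddL b l (dd b i f)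

end Vale.Agent.P088.DM
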