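import Vale.Agent.P088.R2.H459.DM.Defs

/-!
# P088, SOLV: sup bound on boxes by the integrals of the mixed derivatives
-/

open MeasureTheory Set Function Filter Topology
open scoped ContDiff ENNReal NNReal

set_option linter.unusedSectionVars false

noncomputable section

namespace Vale.Agent.P088.DM

section one

variable {E : Type*} [NormedAddCommGroup E] [NormedSpace ℝ E] [CompleteSpace E]

/-- One dimensional bound on an interval. -/
theorem one_int {g : ℝ → E} (hg : ContDiff ℝ 1 g) {a s t : ℝ} (hs : 0 < s)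
    (ht : t ∈ Icc a (a + s)) :
    ‖g t‖ₑ ≤ ENNReal.ofReal (max 1 s⁻¹) * ((∫⁻ τ in Icc a (a + s), ‖g τ‖ₑ) +
      ∫⁻ τ in Icc a (a + s), ‖deriv g τ‖ₑ) := by
  set I : Set ℝ := Icc a (a + s) with hI
  have hder : ∀ x, HasDerivAt g (deriv g x) x := fun x =>
    (hg.differentiable one_ne_zero x).hasDerivAt
  have hcd : Continuous (deriv g) := hg.continuous_deriv le_rfl
  have key : ∀ τ ∈ I, ‖g t‖ₑ ≤ ‖g τ‖ₑ + ∫⁻ x in I, ‖deriv g x‖ₑ := by
    intro τ hτ
    have h1 : ‖g t - g τ‖ₑ ≤ ∫⁻ x in I, ‖deriv g x‖ₑ := by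
      have h2 : ∫ x in τ..t, deriv g x = g t - g τ :=
        intervalIntegral.integral_eq_sub_of_hasDerivAt (fun x _ => hder x)
          (hcd.intervalIntegrable _ _)
      rw [← h2]
      have h3 : ‖∫ x in τ..t, deriv g x‖ₑ = ‖∫ x in uIoc τ t, deriv g x‖ₑ := by
        rw [enorm_eq_iff_norm_eq, intervalIntegral.norm_intervalIntegral_eq]
      rw [h3]
      refine (enorm_integral_le_lintegral_enorm _).trans
        (lintegral_mono_set ?_)
      intro x hx
      rcases hx with ⟨h5, h6⟩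
      exact ⟨le_trans (le_min hτ.1 ht.1) h5.le, h6.trans (max_le hτ.2 ht.2)⟩
    calc ‖g t‖ₑ = ‖g τ + (g t - g τ)‖ₑ := by congr 1; abel
      _ ≤ ‖g τ‖ₑ + ‖g t - g τ‖ₑ := enorm_add_le _ _
      _ ≤ _ := by gcongr
  have hv : volume I = ENNReal.ofReal s := by
    rw [hI, Real.volume_Icc]; congr 1; ring
  have h7 : ENNReal.ofReal s * ‖g t‖ₑ ≤ (∫⁻ τ in I, ‖g τ‖ₑ) +
      ENNReal.ofReal s * ∫⁻ x in I, ‖deriv g x‖ₑ := by
    calc ENNReal.ofReal s * ‖g t‖ₑ = ∫⁻ _ in I, ‖g t‖ₑ := by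
          rw [setLIntegral_const, hv, mul_comm]
      _ ≤ ∫⁻ τ in I, (‖g τ‖ₑ + ∫⁻ x in I, ‖deriv g x‖ₑ) :=
          setLIntegral_mono' measurableSet_Icc fun τ hτ => key τ hτ
      _ = _ := by
          rw [lintegral_add_left hg.continuous.enorm.measurable, setLIntegral_const, hv,
            mul_comm (∫⁻ x in I, ‖deriv g x‖ₑ)]
  have hs0 : ENNReal.ofReal s ≠ 0 := by simpa using hs
  have hsi : (ENNReal.ofReal s)⁻¹ = ENNReal.ofReal s⁻¹ := (ENNReal.ofReal_inv_of_pos hs).symm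
  have h8 : ‖g t‖ₑ ≤ ENNReal.ofReal s⁻¹ * (∫⁻ τ in I, ‖g τ‖ₑ) + ∫⁻ x in I, ‖deriv g x‖ₑ := by
    calc ‖g t‖ₑ = (ENNReal.ofReal s)⁻¹ * (ENNReal.ofReal s * ‖g t‖ₑ) := by
          rw [← mul_assoc, ENNReal.inv_mul_cancel hs0 ENNReal.ofReal_ne_top, one_mul]
      _ ≤ (ENNReal.ofReal s)⁻¹ * ((∫⁻ τ in I, ‖g τ‖ₑ) +
          ENNReal.ofReal s * ∫⁻ x in I, ‖deriv g x‖ₑ) := by gcongr
      _ = _ := by
          rw [mul_add, ← mul_assoc (ENNReal.ofReal s)⁻¹ (ENNReal.ofReal s),
            ENNReal.inv_mul_cancel hs0 ENNReal.ofReal_ne_top, one_mul, hsi]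
  refine h8.trans ?_
  rw [mul_add]
  gcongr
  · exact le_max_right _ _
  · calc (∫⁻ x in I, ‖deriv g x‖ₑ) = 1 * ∫⁻ x in I, ‖deriv g x‖ₑ := (one_mul _).symm
      _ ≤ _ := by
        gcongr
        rw [← ENNReal.ofReal_one]
        exact ENNReal.ofReal_le_ofReal (le_max_left _ _)

end one

section pi

variable {E J : Type*} [NormedAddCommGroup E] [NormedSpace ℝ E] [CompleteSpace E] [Fintype J]
  [DecidableEq J]

/-- The standard basis of `J → ℝ`. -/
abbrev sb (J : Type*) [Fintype J] [DecidableEq J] : Module.Basis J ℝ (J → ℝ) := Pi.basisFun ℝ J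

theorem cd_dd {X : Type*} [NormedAddCommGroup X] [NormedSpace ℝ X] (b : Module.Basis J ℝ X)
    {f : X → E} (hf : ContDiff ℝ ∞ f) (i : J) : ContDiff ℝ ∞ (dd b i f) := by
  have h : ContDiff ℝ ∞ (fderiv ℝ f) := hf.fderiv_right (by norm_cast)
  exact h.clm_apply contDiff_const

theorem cd_ddL {X : Type*} [NormedAddCommGroup X] [NormedSpace ℝ X] (b : Module.Basis J ℝ X) :
    ∀ (l : List J) {f : X → E}, ContDiff ℝ ∞ f → ContDiff ℝ ∞ (ddL b l f)
  | [], _, h => h
  | i :: l, _, h => cd_ddL b l (cd_dd b h i)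

theorem deriv_update {f : (J → ℝ) → E} (hf : ContDiff ℝ ∞ f) (i : J) (x : J → ℝ) (t : ℝ) :
    deriv (fun τ => f (update x i τ)) t = dd (sb J) i f (update x i t) := by
  have h1 : HasFDerivAt f (fderiv ℝ f (update x i t)) (update x i t) :=
    (hf.differentiable (by simp) _).hasFDerivAt
  have h2 := h1.comp_hasDerivAt t (hasDerivAt_update x i t)
  rw [show (fun τ => f (update x i τ)) = f ∘ update x i from rfl, h2.deriv]
  simp [dd, Pi.basisFun_apply]

/-- Sup bound on a box, in terms of the iterated integrals. -/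
theorem lmarg {a : J → ℝ} {s : ℝ} (hs : 0 < s) (l : List J) (hl : l.Nodup) :
    ∀ {f : (J → ℝ) → E}, ContDiff ℝ ∞ f → ∀ x : J → ℝ, (∀ i ∈ l, x i ∈ Icc (a i) (a i + s)) →
    ‖f x‖ₑ ≤ ENNReal.ofReal (max 1 s⁻¹) ^ l.length * ((List.sublists' l).map fun S =>
      (∫⋯∫⁻_l.toFinset, (fun y => ‖ddL (sb J) S f y‖ₑ)
        ∂fun i => (volume : Measure ℝ).restrict (Icc (a i) (a i + s))) x).sum := by
  induction l with
  | nil =>
    intro f hf x hx
    simp [ddL]
  | cons i l ih =>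
    intro f hf x hx
    have hl' := List.nodup_cons.1 hl
    set c := ENNReal.ofReal (max 1 s⁻¹) with hc
    set μ : J → Measure ℝ := fun i => (volume : Measure ℝ).restrict (Icc (a i) (a i + s)) with hμ
    have hin : i ∉ l.toFinset := by simpa using hl'.1
    have hg : ContDiff ℝ 1 (fun τ => f (update x i τ)) :=
      (hf.of_le (by simp)).comp (contDiff_update 1 x i)
    have h1 := one_int hg hs (hx i (by simp))
    have hxx : update x i (x i) = x := update_eq_self i x
    rw [hxx] at h1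
    have h2 : ∀ (F : (J → ℝ) → E), ContDiff ℝ ∞ F → ∀ S : List J,
        ∫⁻ τ in Icc (a i) (a i + s), (∫⋯∫⁻_l.toFinset, (fun y => ‖ddL (sb J) S F y‖ₑ) ∂μ)
          (update x i τ) = (∫⋯∫⁻_insert i l.toFinset, (fun y => ‖ddL (sb J) S F y‖ₑ) ∂μ) x := by
      intro F hF S
      rw [lmarginal_insert _ (cd_ddL (sb J) S hF).continuous.enorm.measurable hin]
    have h3 : ∀ (F : (J → ℝ) → E), ContDiff ℝ ∞ F →
        ∫⁻ τ in Icc (a i) (a i + s), ‖F (update x i τ)‖ₑ ≤ c ^ l.length *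
        ((List.sublists' l).map fun S =>
          (∫⋯∫⁻_insert i l.toFinset, (fun y => ‖ddL (sb J) S F y‖ₑ) ∂μ) x).sum := by
      intro F hF
      have h4 : ∀ τ, ‖F (update x i τ)‖ₑ ≤ c ^ l.length * ((List.sublists' l).map fun S =>
          (∫⋯∫⁻_l.toFinset, (fun y => ‖ddL (sb J) S F y‖ₑ) ∂μ) (update x i τ)).sum := by
        intro τ
        refine ih hl'.2 hF _ fun j hj => ?_
        have : j ≠ i := fun h => hl'.1 (h ▸ hj)
        rw [update_of_ne this]
        exact hx j (List.mem_cons_of_mem _ hj)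
      refine (lintegral_mono fun τ => h4 τ).trans (le_of_eq ?_)
      have hmeas : ∀ S : List J, Measurable fun τ : ℝ =>
          (∫⋯∫⁻_l.toFinset, (fun y => ‖ddL (sb J) S F y‖ₑ) ∂μ) (update x i τ) := fun S =>
        ((cd_ddL (sb J) S hF).continuous.enorm.measurable.lmarginal μ).comp
          (measurable_update x)
      have h5 : ∀ L : List (List J), ∫⁻ τ in Icc (a i) (a i + s), (L.map fun S =>
          (∫⋯∫⁻_l.toFinset, (fun y => ‖ddL (sb J) S F y‖ₑ) ∂μ) (update x i τ)).sum =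
          (L.map fun S => (∫⋯∫⁻_insert i l.toFinset, (fun y => ‖ddL (sb J) S F y‖ₑ) ∂μ) x).sum := by
        intro L
        induction L with
        | nil => simp
        | cons S L ihL =>
          simp only [List.map_cons, List.sum_cons]
          rw [lintegral_add_left (hmeas S), ihL, h2 F hF S]
      have hfin : c ^ l.length ≠ ⊤ := ENNReal.pow_ne_top ENNReal.ofReal_ne_top
      rw [lintegral_const_mul' _ _ hfin, h5]
    have h6 : ∀ τ, deriv (fun τ => f (update x i τ)) τ = dd (sb J) i f (update x i τ) :=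
      deriv_update hf i x
    simp only [h6] at h1
    refine h1.trans ?_
    rw [List.toFinset_cons, List.length_cons, pow_succ', mul_assoc, List.sublists'_cons,
      List.map_append, List.sum_append, List.map_map]
    have h7 := add_le_add (h3 f hf) (h3 (dd (sb J) i f) (cd_dd (sb J) hf i))
    rw [← mul_add] at h7
    exact mul_le_mul' le_rfl h7

/-- Sup bound on a box. -/
theorem sup_box {a : J → ℝ} {s : ℝ} (hs : 0 < s) {f : (J → ℝ) → E} (hf : ContDiff ℝ ∞ f)
    (x : J → ℝ) (hx : ∀ i, x i ∈ Icc (a i) (a i + s)) :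
    ‖f x‖ₑ ≤ ENNReal.ofReal (max 1 s⁻¹) ^ (Finset.univ : Finset J).toList.length *
      ((List.sublists' (Finset.univ : Finset J).toList).map fun S =>
        ∫⁻ y in Set.univ.pi fun i => Icc (a i) (a i + s), ‖ddL (sb J) S f y‖ₑ).sum := by
  have h := lmarg hs (Finset.univ : Finset J).toList (Finset.nodup_toList _) hf x
    (fun i _ => hx i)
  rw [Finset.toList_toFinset] at h
  refine h.trans (le_of_eq ?_)
  simp only [lmarginal_univ]
  rw [← Measure.restrict_pi_pi]
  rfl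

end pi

end Vale.Agent.P088.DM
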